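import Vale.Agent.Lib.P331.Defs

open MeasureTheory Finset
open scoped NNReal ENNReal

noncomputable section
namespace Vale.Agent.Lib.P331
variable {m n : ℕ} {F : Type*} [Field F]

theorem core_recS_flip (W b : Fin n → Bool) (ω : Fin n → ℝ≥0 × ℝ≥0) (e : Fin n) :
    recS (fun i => (flipω W ω i).1) (flipb W b) e =
      if W e then recV (ω e).2 b e else recS (fun i => (ω i).1) b e := by
  by_cases h : W e <;> cases hb : b e <;> simp [recS, recV, flipω, flipb, keyS, keyV, h, hb]

theorem core_recV_flip (W b : Fin n → Bool) (ω : Fin n → ℝ≥0 × ℝ≥0) (e : Fin n) :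
    recV (flipω W ω e).2 (flipb W b) e =
      if W e then recS (fun i => (ω i).1) b e else recV (ω e).2 b e := by
  by_cases h : W e <;> cases hb : b e <;> simp [recS, recV, flipω, flipb, keyS, keyV, h, hb]

theorem core_card_half (Q : Finset (Fin n → Bool)) (x : Fin n) (t : Bool)
    (hQ : ∀ W ∈ Q, Function.update W x (!W x) ∈ Q) :
    Q.card ≤ 2 * (Q.filter (fun W => W x = t)).card := by
  classical
  have h1 : (Q.filter (fun W => ¬ W x = t)).card ≤ (Q.filter (fun W => W x = t)).card := by
    apply Finset.card_le_card_of_injOn (fun W => Function.update W x (!W x))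
    · intro W hW
      have hW' := Finset.mem_coe.1 hW
      rw [Finset.mem_filter] at hW'
      apply Finset.mem_coe.2
      rw [Finset.mem_filter]
      refine ⟨hQ W hW'.1, ?_⟩
      have := hW'.2
      simp only [Function.update_self]
      cases hx : W x <;> cases t <;> simp_all
    · intro W _ W' _ h
      funext i
      have hi := congrFun h i
      by_cases hix : i = x
      · subst hix
        simp only [Function.update_self] at hi
        cases hx : W i <;> cases hx' : W' i <;> simp_all
      · simpa [Function.update_of_ne hix] using hi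
  have h2 := Finset.card_filter_add_card_filter_not (s := Q) (fun W => W x = t)
  omega

theorem core_abstract {α : Type*} [LinearOrder α] (a c : Fin n → α)
    (hac : ∀ e, a e ≠ c e)
    (hdist : ∀ e f, e ≠ f → a e ≠ a f ∧ a e ≠ c f ∧ c e ≠ a f ∧ c e ≠ c f)
    (P : Finset (Fin n)) (hP : P.Nonempty) :
    ∃ e1 ∈ P, (∀ x ∈ P, max (a x) (c x) ≤ max (a e1) (c e1)) ∧
      ∃ G : Finset (Fin n → Bool), 2 ^ n ≤ 4 * G.card ∧ ∀ W ∈ G,
        (if W e1 then a e1 else c e1) = max (a e1) (c e1) ∧
        (∀ f ∈ P, (if W f then c f else a f) < (if W e1 then a e1 else c e1)) ∧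
        (∀ g ∈ P, g ≠ e1 → ∃ f ∈ P, (if W g then a g else c g) < (if W f then c f else a f)) := by
  classical
  obtain ⟨e1, he1, hmax⟩ := Finset.exists_max_image P (fun x => max (a x) (c x)) hP
  refine ⟨e1, he1, hmax, ?_⟩
  -- generic facts about the records
  have hS_le : ∀ (u : Bool) (f : Fin n), (if u then c f else a f) ≤ max (a f) (c f) := by
    intro u f; cases u <;> simp
  have hV_le : ∀ (u : Bool) (f : Fin n), (if u then a f else c f) ≤ max (a f) (c f) := by
    intro u f; cases u <;> simp
  have hS_ne : ∀ (u : Bool) (f e : Fin n), f ≠ e → (if u then c f else a f) ≠ max (a e) (c e) := by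
    intro u f e hfe
    have hd := hdist f e hfe
    rcases max_choice (a e) (c e) with h | h <;> rw [h] <;> cases u <;> simp [hd.1, hd.2.1, hd.2.2.1, hd.2.2.2]
  have hV_ne : ∀ (u : Bool) (f e : Fin n), f ≠ e → (if u then a f else c f) ≠ max (a e) (c e) := by
    intro u f e hfe
    have hd := hdist f e hfe
    rcases max_choice (a e) (c e) with h | h <;> rw [h] <;> cases u <;> simp [hd.1, hd.2.1, hd.2.2.1, hd.2.2.2]
  -- the value at a top element
  have hV_top : ∀ (W : Fin n → Bool) (e : Fin n), W e = decide (c e < a e) →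
      (if W e then a e else c e) = max (a e) (c e) := by
    intro W e h
    rw [h]
    by_cases hlt : c e < a e
    · simp [hlt, hlt.le]
    · simp [hlt, not_lt.1 hlt]
  have hS_low : ∀ (W : Fin n → Bool) (e : Fin n), W e = decide (c e < a e) →
      (if W e then c e else a e) < max (a e) (c e) := by
    intro W e h
    rw [h]
    by_cases hlt : c e < a e
    · simp [hlt]
    · have : a e < c e := lt_of_le_of_ne (not_lt.1 hlt) (hac e)
      simp [hlt, this]
  have hS_top : ∀ (W : Fin n → Bool) (e : Fin n), W e = decide (a e < c e) →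
      (if W e then c e else a e) = max (a e) (c e) := by
    intro W e h
    rw [h]
    by_cases hlt : a e < c e
    · simp [hlt, hlt.le]
    · simp [hlt, not_lt.1 hlt]
  have hV_low : ∀ (W : Fin n → Bool) (e : Fin n), W e = decide (a e < c e) →
      (if W e then a e else c e) < max (a e) (c e) := by
    intro W e h
    rw [h]
    by_cases hlt : a e < c e
    · simp [hlt]
    · have : c e < a e := lt_of_le_of_ne (not_lt.1 hlt) (hac e).symm
      simp [hlt, this]
  -- the winner condition on the sample side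
  have hwin : ∀ (W : Fin n → Bool), W e1 = decide (c e1 < a e1) → ∀ f ∈ P,
      (if W f then c f else a f) < (if W e1 then a e1 else c e1) := by
    intro W hW f hf
    rw [hV_top W e1 hW]
    by_cases hfe : f = e1
    · subst hfe
      exact hS_low W f hW
    · exact lt_of_le_of_ne ((hS_le (W f) f).trans (hmax f hf)) (hS_ne (W f) f e1 hfe)
  have hcard1 : (univ : Finset (Fin n → Bool)).card ≤
      2 * ((univ : Finset (Fin n → Bool)).filter (fun W => W e1 = decide (c e1 < a e1))).card :=
    core_card_half _ e1 _ (fun _ _ => Finset.mem_univ _)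
  have huniv : (univ : Finset (Fin n → Bool)).card = 2 ^ n := by
    simp
  by_cases hne : (P.erase e1).Nonempty
  · obtain ⟨e2, he2, hmax2⟩ := Finset.exists_max_image (P.erase e1) (fun x => max (a x) (c x)) hne
    have he2ne : e2 ≠ e1 := (Finset.mem_erase.1 he2).1
    have he2P : e2 ∈ P := (Finset.mem_erase.1 he2).2
    refine ⟨((univ : Finset (Fin n → Bool)).filter
      (fun W => W e1 = decide (c e1 < a e1))).filter (fun W => W e2 = decide (a e2 < c e2)), ?_, ?_⟩
    · have hcard2 := core_card_half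
        ((univ : Finset (Fin n → Bool)).filter (fun W => W e1 = decide (c e1 < a e1))) e2
        (decide (a e2 < c e2)) (by
          intro W hW
          rw [Finset.mem_filter] at hW ⊢
          refine ⟨Finset.mem_univ _, ?_⟩
          rw [Function.update_of_ne he2ne.symm]
          exact hW.2)
      omega
    · intro W hW
      rw [Finset.mem_filter, Finset.mem_filter] at hW
      have hW1 := hW.1.2
      have hW2 := hW.2
      refine ⟨hV_top W e1 hW1, hwin W hW1, ?_⟩
      intro g hg hge
      refine ⟨e2, he2P, ?_⟩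
      rw [hS_top W e2 hW2]
      by_cases hg2 : g = e2
      · subst hg2
        exact hV_low W g hW2
      · have hgm : g ∈ P.erase e1 := Finset.mem_erase.2 ⟨hge, hg⟩
        exact lt_of_le_of_ne ((hV_le (W g) g).trans (hmax2 g hgm)) (hV_ne (W g) g e2 hg2)
  · refine ⟨(univ : Finset (Fin n → Bool)).filter (fun W => W e1 = decide (c e1 < a e1)), ?_, ?_⟩
    · omega
    · intro W hW
      rw [Finset.mem_filter] at hW
      refine ⟨hV_top W e1 hW.2, hwin W hW.2, ?_⟩
      intro g hg hge
      exact absurd ⟨g, Finset.mem_erase.2 ⟨hge, hg⟩⟩ hne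

theorem core_key_div_S (b : Fin n → Bool) (e : Fin n) : keyS b e / 2 = (e : ℕ) := by
  unfold keyS; split_ifs <;> omega

theorem core_key_div_V (b : Fin n → Bool) (e : Fin n) : keyV b e / 2 = (e : ℕ) := by
  unfold keyV; split_ifs <;> omega

theorem core_key_ne (b : Fin n → Bool) (e : Fin n) : keyS b e ≠ keyV b e := by
  unfold keyS keyV; split_ifs <;> omega

open Classical in
/-- Core: for a part containing `e0`, flips produce a unique winner with value at least
`V_{e0}` on at least a quarter of the `W`.  See papers P331/helper8 step CORE. -/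
theorem core_part (A : Matrix (Fin m) (Fin n) F) (π : Equiv.Perm (Fin m)) (b : Fin n → Bool)
    (ω : Fin n → ℝ≥0 × ℝ≥0) (e0 : Fin n) (h0 : lastPos A π e0 ≠ 0) :
    (2 ^ n : ℝ≥0∞) * ((ω e0).2 : ℝ≥0∞) ≤
      4 * ∑ W : Fin n → Bool, ∑ e ∈ univ.filter (fun e => lastPos A π e = lastPos A π e0),
        (if UniqueWinner A π (flipb W b) (flipω W ω) e then ((flipω W ω e).2 : ℝ≥0∞) else 0) := by
  set a : Fin n → ℝ≥0 ×ₗ ℕ := fun e => recS (fun i => (ω i).1) b e with ha
  set c : Fin n → ℝ≥0 ×ₗ ℕ := fun e => recV (ω e).2 b e with hc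
  have hac : ∀ e, a e ≠ c e := by
    intro e h
    have h' : (toLex ((ω e).1, keyS b e) : ℝ≥0 ×ₗ ℕ) = toLex ((ω e).2, keyV b e) := h
    have h'' := (Prod.mk.inj (toLex.injective h')).2
    exact core_key_ne b e h''
  have hdist : ∀ e f, e ≠ f → a e ≠ a f ∧ a e ≠ c f ∧ c e ≠ a f ∧ c e ≠ c f := by
    intro e f hef
    have hval : (e : ℕ) ≠ (f : ℕ) := fun h => hef (Fin.ext h)
    refine ⟨?_, ?_, ?_, ?_⟩
    · intro h
      have h' : (toLex ((ω e).1, keyS b e) : ℝ≥0 ×ₗ ℕ) = toLex ((ω f).1, keyS b f) := h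
      have h'' := (Prod.mk.inj (toLex.injective h')).2
      apply hval
      rw [← core_key_div_S b e, ← core_key_div_S b f, h'']
    · intro h
      have h' : (toLex ((ω e).1, keyS b e) : ℝ≥0 ×ₗ ℕ) = toLex ((ω f).2, keyV b f) := h
      have h'' := (Prod.mk.inj (toLex.injective h')).2
      apply hval
      rw [← core_key_div_S b e, ← core_key_div_V b f, h'']
    · intro h
      have h' : (toLex ((ω e).2, keyV b e) : ℝ≥0 ×ₗ ℕ) = toLex ((ω f).1, keyS b f) := h
      have h'' := (Prod.mk.inj (toLex.injective h')).2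
      apply hval
      rw [← core_key_div_V b e, ← core_key_div_S b f, h'']
    · intro h
      have h' : (toLex ((ω e).2, keyV b e) : ℝ≥0 ×ₗ ℕ) = toLex ((ω f).2, keyV b f) := h
      have h'' := (Prod.mk.inj (toLex.injective h')).2
      apply hval
      rw [← core_key_div_V b e, ← core_key_div_V b f, h'']
  set P : Finset (Fin n) := univ.filter (fun e => lastPos A π e = lastPos A π e0) with hPdef
  have hmemP : ∀ e, e ∈ P ↔ lastPos A π e = lastPos A π e0 := by
    intro e; simp [hPdef]
  obtain ⟨e1, he1, hmax, G, hG, hW⟩ := core_abstract a c hac hdist P ⟨e0, (hmemP e0).2 rfl⟩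
  have hlabel : lastPos A π e1 = lastPos A π e0 := (hmemP e1).1 he1
  have hper : ∀ W ∈ G, ((ω e0).2 : ℝ≥0∞) ≤ ∑ e ∈ P,
      (if UniqueWinner A π (flipb W b) (flipω W ω) e then ((flipω W ω e).2 : ℝ≥0∞) else 0) := by
    intro W hWG
    obtain ⟨h1, h2, h3⟩ := hW W hWG
    have hrV : recV (flipω W ω e1).2 (flipb W b) e1 = if W e1 then a e1 else c e1 :=
      core_recV_flip W b ω e1
    have hU : UniqueWinner A π (flipb W b) (flipω W ω) e1 := by
      refine ⟨by rw [hlabel]; exact h0, ?_, ?_⟩
      · intro f hf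
        have hfP : f ∈ P := (hmemP f).2 (hf.trans hlabel)
        have hrS : recS (fun i => (flipω W ω i).1) (flipb W b) f = if W f then c f else a f :=
          core_recS_flip W b ω f
        rw [hrS, hrV]
        exact h2 f hfP
      · intro g hg hge
        have hgP : g ∈ P := (hmemP g).2 (hg.trans hlabel)
        obtain ⟨f, hfP, hlt⟩ := h3 g hgP hge
        refine ⟨f, ((hmemP f).1 hfP).trans hlabel.symm, ?_⟩
        have hrS : recS (fun i => (flipω W ω i).1) (flipb W b) f = if W f then c f else a f :=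
          core_recS_flip W b ω f
        have hrV' : recV (flipω W ω g).2 (flipb W b) g = if W g then a g else c g :=
          core_recV_flip W b ω g
        rw [hrS, hrV']
        exact hlt
    have hval : (ω e0).2 ≤ (flipω W ω e1).2 := by
      have hle : c e0 ≤ recV (flipω W ω e1).2 (flipb W b) e1 := by
        rw [hrV, h1]
        exact (le_max_right _ _).trans (hmax e0 ((hmemP e0).2 rfl))
      have hle' : (toLex ((ω e0).2, keyV b e0) : ℝ≥0 ×ₗ ℕ) ≤
          toLex ((flipω W ω e1).2, keyV (flipb W b) e1) := hle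
      rcases (Prod.Lex.toLex_le_toLex).1 hle' with h | h
      · exact h.le
      · exact h.1.le
    calc ((ω e0).2 : ℝ≥0∞) ≤ ((flipω W ω e1).2 : ℝ≥0∞) := by exact_mod_cast hval
      _ = (if UniqueWinner A π (flipb W b) (flipω W ω) e1 then ((flipω W ω e1).2 : ℝ≥0∞) else 0) := by
          rw [if_pos hU]
      _ ≤ _ := Finset.single_le_sum
          (f := fun e => (if UniqueWinner A π (flipb W b) (flipω W ω) e then
            ((flipω W ω e).2 : ℝ≥0∞) else 0)) (fun _ _ => zero_le) he1
  calc (2 ^ n : ℝ≥0∞) * ((ω e0).2 : ℝ≥0∞)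
      ≤ (4 * (G.card : ℝ≥0∞)) * ((ω e0).2 : ℝ≥0∞) := by
        gcongr
        exact_mod_cast hG
    _ = 4 * ∑ _W ∈ G, ((ω e0).2 : ℝ≥0∞) := by
        rw [Finset.sum_const, nsmul_eq_mul, mul_assoc]
    _ ≤ 4 * ∑ W ∈ G, ∑ e ∈ P,
        (if UniqueWinner A π (flipb W b) (flipω W ω) e then ((flipω W ω e).2 : ℝ≥0∞) else 0) := by
        gcongr with W hWG
        exact hper W hWG
    _ ≤ 4 * ∑ W : Fin n → Bool, ∑ e ∈ P,
        (if UniqueWinner A π (flipb W b) (flipω W ω) e then ((flipω W ω e).2 : ℝ≥0∞) else 0) := by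
        gcongr
        exact Finset.subset_univ _

/-- Summing `core_part` over a set `J` with pairwise distinct nonzero labels. -/
theorem four_mul_sum_flip_H_ge (A : Matrix (Fin m) (Fin n) F) (π : Equiv.Perm (Fin m))
    (b : Fin n → Bool) (ω : Fin n → ℝ≥0 × ℝ≥0) (J : Finset (Fin n))
    (h0 : ∀ e ∈ J, lastPos A π e ≠ 0)
    (hd : ∀ e ∈ J, ∀ f ∈ J, lastPos A π e = lastPos A π f → e = f) :
    (2 ^ n : ℝ≥0∞) * ∑ e ∈ J, ((ω e).2 : ℝ≥0∞) ≤
      4 * ∑ W : Fin n → Bool, H A π (flipb W b) (flipω W ω) := by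
  classical
  have hdisj : ∀ (g : Fin n → ℝ≥0∞),
      ∑ e0 ∈ J, ∑ e ∈ univ.filter (fun e => lastPos A π e = lastPos A π e0), g e ≤ ∑ e, g e := by
    intro g
    rw [← Finset.sum_biUnion]
    · exact Finset.sum_le_sum_of_subset (Finset.subset_univ _)
    · intro x hx y hy hxy
      refine Finset.disjoint_left.2 ?_
      intro e hex hey
      have h1 := (Finset.mem_filter.1 hex).2
      have h2 := (Finset.mem_filter.1 hey).2
      exact hxy (hd x hx y hy (h1.symm.trans h2))
  calc (2 ^ n : ℝ≥0∞) * ∑ e ∈ J, ((ω e).2 : ℝ≥0∞)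
      = ∑ e0 ∈ J, (2 ^ n : ℝ≥0∞) * ((ω e0).2 : ℝ≥0∞) := by rw [Finset.mul_sum]
    _ ≤ ∑ e0 ∈ J, 4 * ∑ W : Fin n → Bool, ∑ e ∈ univ.filter (fun e => lastPos A π e = lastPos A π e0),
        (if UniqueWinner A π (flipb W b) (flipω W ω) e then ((flipω W ω e).2 : ℝ≥0∞) else 0) := by
        refine Finset.sum_le_sum fun e0 he0 => ?_
        convert core_part A π b ω e0 (h0 e0 he0) using 6
    _ = 4 * ∑ W : Fin n → Bool, ∑ e0 ∈ J, ∑ e ∈ univ.filter (fun e => lastPos A π e = lastPos A π e0),
        (if UniqueWinner A π (flipb W b) (flipω W ω) e then ((flipω W ω e).2 : ℝ≥0∞) else 0) := by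
        rw [← Finset.mul_sum, Finset.sum_comm]
    _ ≤ 4 * ∑ W : Fin n → Bool, H A π (flipb W b) (flipω W ω) := by
        gcongr with W
        unfold H
        convert hdisj _ using 3

end Vale.Agent.Lib.P331
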