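import Mathlib

/-!
P331 single-sample prophet inequality for column-sparse linear matroids against the almighty
adversary.  Values live in `ℝ≥0`.  Config: `ω e = (S_e, V_e)`, coins `b`, row permutation `π`.
-/

open MeasureTheory Finset
open scoped NNReal ENNReal

noncomputable section

namespace Vale.Agent.Lib.P331

variable {m n : ℕ} {F : Type*} [Field F]

/-- Independent sets of the linear matroid of the columns of `A`. -/
def ColIndep (A : Matrix (Fin m) (Fin n) F) (I : Finset (Fin n)) : Prop :=
  LinearIndependent F (fun e : I => fun i : Fin m => A i e.1)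

/-- `OPT_M(v)`: the maximum over independent sets of the total value. -/
def optE (A : Matrix (Fin m) (Fin n) F) (v : Fin n → ℝ≥0) : ℝ≥0∞ :=
  ⨆ (I : Finset (Fin n)) (_ : ColIndep A I), ∑ e ∈ I, (v e : ℝ≥0∞)

/-- An online rule with seed space `R`: it decides on the current element from the samples,
the seed, the set accepted so far, the identity of the current element and its value. -/
structure OnlineRule (n : ℕ) (R : Type) where
  accept : (Fin n → ℝ≥0) → R → Finset (Fin n) → Fin n → ℝ≥0 → Prop

open Classical in
/-- The accepted set when the elements arrive in the given order. -/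
def OnlineRule.run {R : Type} (ρ : OnlineRule n R) (s : Fin n → ℝ≥0) (r : R) (v : Fin n → ℝ≥0)
    (order : List (Fin n)) : Finset (Fin n) :=
  order.foldl (fun acc e => if ρ.accept s r acc e (v e) then insert e acc else acc) ∅

/-- Seeds: a permutation of the rows and one coin per element (uniform on this finite type). -/
abbrev Seed (m n : ℕ) : Type := Equiv.Perm (Fin m) × (Fin n → Bool)

/-- The joint law of the pairs `(S_e, V_e)`: all mutually independent, `S_e, V_e ∼ D_e`. -/
def jointLaw (D : Fin n → Measure ℝ≥0) : Measure (Fin n → ℝ≥0 × ℝ≥0) :=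
  Measure.pi (fun e => (D e).prod (D e))

/-- `lastPos π e`: `0` for a zero column, otherwise `1 +` the largest `π`-position of a row
in the support of the column `e`.  This labels the part of `e`. -/
def lastPos (A : Matrix (Fin m) (Fin n) F) (π : Equiv.Perm (Fin m)) (e : Fin n) : ℕ :=
  by classical exact (univ.filter (fun i => A i e ≠ 0)).sup (fun i => (π i : ℕ) + 1)

/-- tie-break keys: distinct for distinct (element, side) -/
def keyS (b : Fin n → Bool) (e : Fin n) : ℕ := 2 * (e : ℕ) + (if b e then 1 else 0)
def keyV (b : Fin n → Bool) (e : Fin n) : ℕ := 2 * (e : ℕ) + (if b e then 0 else 1)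

/-- the record of a sample -/
def recS (s : Fin n → ℝ≥0) (b : Fin n → Bool) (e : Fin n) : ℝ≥0 ×ₗ ℕ := toLex (s e, keyS b e)
/-- the record of a value `x` of element `e` -/
def recV (x : ℝ≥0) (b : Fin n → Bool) (e : Fin n) : ℝ≥0 ×ₗ ℕ := toLex (x, keyV b e)

/-- The rule: accept `e` iff its column is nonzero, no accepted element has the same part, and the
record of the value beats the record of each sample in the part of `e`. -/
def theRule (A : Matrix (Fin m) (Fin n) F) : OnlineRule n (Seed m n) where
  accept s r acc e x :=
    lastPos A r.1 e ≠ 0 ∧ (∀ f ∈ acc, lastPos A r.1 f ≠ lastPos A r.1 e) ∧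
      ∀ f, lastPos A r.1 f = lastPos A r.1 e → recS s r.2 f < recV x r.2 e

/-- `e` is the unique element of its part whose value record beats all sample records of the part -/
def UniqueWinner (A : Matrix (Fin m) (Fin n) F) (π : Equiv.Perm (Fin m)) (b : Fin n → Bool)
    (ω : Fin n → ℝ≥0 × ℝ≥0) (e : Fin n) : Prop :=
  lastPos A π e ≠ 0 ∧
  (∀ f, lastPos A π f = lastPos A π e → recS (fun i => (ω i).1) b f < recV (ω e).2 b e) ∧
  (∀ g, lastPos A π g = lastPos A π e → g ≠ e →
     ∃ f, lastPos A π f = lastPos A π e ∧ recV (ω g).2 b g < recS (fun i => (ω i).1) b f)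

open Classical in
/-- pointwise lower bound on the gain -/
def H (A : Matrix (Fin m) (Fin n) F) (π : Equiv.Perm (Fin m)) (b : Fin n → Bool)
    (ω : Fin n → ℝ≥0 × ℝ≥0) : ℝ≥0∞ :=
  ∑ e, if UniqueWinner A π b ω e then ((ω e).2 : ℝ≥0∞) else 0

/-- flip: swap sample and value, and the coin, on the elements with `W e = true` -/
def flipω (W : Fin n → Bool) (ω : Fin n → ℝ≥0 × ℝ≥0) : Fin n → ℝ≥0 × ℝ≥0 :=
  fun e => if W e then (ω e).swap else ω e
def flipb (W : Fin n → Bool) (b : Fin n → Bool) : Fin n → Bool := fun e => xor (W e) (b e)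

end Vale.Agent.Lib.P331
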