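import Vale.Agent.Lib.P331.Defs

open MeasureTheory Finset
open scoped NNReal ENNReal

noncomputable section
namespace Vale.Agent.Lib.P331
variable {m n : ℕ} {F : Type*} [Field F]

theorem ms_recS_lt_recV (b : Fin n → Bool) (f e : Fin n) :
    MeasurableSet {ω : Fin n → ℝ≥0 × ℝ≥0 |
      recS (fun i => (ω i).1) b f < recV (ω e).2 b e} := by
  have hset : {ω : Fin n → ℝ≥0 × ℝ≥0 | recS (fun i => (ω i).1) b f < recV (ω e).2 b e} =
      {ω | (ω f).1 < (ω e).2} ∪ ({ω | (ω f).1 = (ω e).2} ∩ {_ω | keyS b f < keyV b e}) := by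
    ext ω
    simp only [Set.mem_setOf_eq, Set.mem_union, Set.mem_inter_iff, recS, recV,
      Prod.Lex.toLex_lt_toLex]
  rw [hset]
  have h1 : Measurable fun ω : Fin n → ℝ≥0 × ℝ≥0 => (ω f).1 :=
    measurable_fst.comp (measurable_pi_apply f)
  have h2 : Measurable fun ω : Fin n → ℝ≥0 × ℝ≥0 => (ω e).2 :=
    measurable_snd.comp (measurable_pi_apply e)
  exact (measurableSet_lt h1 h2).union ((measurableSet_eq_fun h1 h2).inter (MeasurableSet.const _))

theorem ms_recV_lt_recS (b : Fin n → Bool) (g f : Fin n) :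
    MeasurableSet {ω : Fin n → ℝ≥0 × ℝ≥0 |
      recV (ω g).2 b g < recS (fun i => (ω i).1) b f} := by
  have hset : {ω : Fin n → ℝ≥0 × ℝ≥0 | recV (ω g).2 b g < recS (fun i => (ω i).1) b f} =
      {ω | (ω g).2 < (ω f).1} ∪ ({ω | (ω g).2 = (ω f).1} ∩ {_ω | keyV b g < keyS b f}) := by
    ext ω
    simp only [Set.mem_setOf_eq, Set.mem_union, Set.mem_inter_iff, recS, recV,
      Prod.Lex.toLex_lt_toLex]
  rw [hset]
  have h1 : Measurable fun ω : Fin n → ℝ≥0 × ℝ≥0 => (ω f).1 :=
    measurable_fst.comp (measurable_pi_apply f)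
  have h2 : Measurable fun ω : Fin n → ℝ≥0 × ℝ≥0 => (ω g).2 :=
    measurable_snd.comp (measurable_pi_apply g)
  exact (measurableSet_lt h2 h1).union ((measurableSet_eq_fun h2 h1).inter (MeasurableSet.const _))

theorem ms_uniqueWinner (A : Matrix (Fin m) (Fin n) F) (π : Equiv.Perm (Fin m))
    (b : Fin n → Bool) (e : Fin n) :
    MeasurableSet {ω : Fin n → ℝ≥0 × ℝ≥0 | UniqueWinner A π b ω e} := by
  classical
  have hset : {ω : Fin n → ℝ≥0 × ℝ≥0 | UniqueWinner A π b ω e} =
      {_ω | lastPos A π e ≠ 0} ∩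
      ((⋂ f, ⋂ (_ : lastPos A π f = lastPos A π e),
          {ω : Fin n → ℝ≥0 × ℝ≥0 | recS (fun i => (ω i).1) b f < recV (ω e).2 b e}) ∩
       (⋂ g, ⋂ (_ : lastPos A π g = lastPos A π e), ⋂ (_ : g ≠ e),
          ⋃ f, ⋃ (_ : lastPos A π f = lastPos A π e),
            {ω : Fin n → ℝ≥0 × ℝ≥0 | recV (ω g).2 b g < recS (fun i => (ω i).1) b f})) := by
    ext ω
    simp [UniqueWinner]
  rw [hset]
  refine (MeasurableSet.const _).inter (MeasurableSet.inter ?_ ?_)
  · refine MeasurableSet.iInter fun f => MeasurableSet.iInter fun _ => ms_recS_lt_recV b f e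
  · refine MeasurableSet.iInter fun g => MeasurableSet.iInter fun _ => MeasurableSet.iInter fun _ =>
      MeasurableSet.iUnion fun f => MeasurableSet.iUnion fun _ => ms_recV_lt_recS b g f

/-- `H` is measurable in `ω`. -/
theorem measurable_H (A : Matrix (Fin m) (Fin n) F) (π : Equiv.Perm (Fin m)) (b : Fin n → Bool) :
    Measurable (H A π b) := by
  classical
  unfold H
  refine Finset.measurable_sum _ fun e _ => ?_
  refine Measurable.ite (ms_uniqueWinner A π b e) ?_ measurable_const
  exact (measurable_coe_nnreal_ennreal.comp (measurable_snd.comp (measurable_pi_apply e)))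

/-- Swapping the sample and the value on any set of elements preserves the joint law. -/
theorem flip_measurePreserving (D : Fin n → Measure ℝ≥0) (hD : ∀ e, IsProbabilityMeasure (D e))
    (W : Fin n → Bool) : MeasurePreserving (flipω W) (jointLaw D) (jointLaw D) := by
  have hD' := hD
  haveI : ∀ e, IsProbabilityMeasure ((D e).prod (D e)) := fun e => by
    haveI := hD e
    infer_instance
  have key : ∀ e, MeasurePreserving (fun p : ℝ≥0 × ℝ≥0 => if W e then p.swap else p)
      ((D e).prod (D e)) ((D e).prod (D e)) := by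
    intro e
    haveI := hD e
    by_cases h : W e = true
    · simp only [h, if_true]
      exact Measure.measurePreserving_swap
    · simp only [h, if_false]
      exact MeasurePreserving.id _
  exact measurePreserving_pi _ _ key

end Vale.Agent.Lib.P331
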