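import Vale.Agent.Lib.P331.Defs

open MeasureTheory Finset
open scoped NNReal ENNReal

noncomputable section
namespace Vale.Agent.Lib.P331
variable {m n : ℕ} {F : Type*} [Field F]

/-- Hall: a nonempty independent set of columns has a system of distinct nonzero rows.
(Nonemptiness is needed only to have a value of `ρ` off `I` when `m = 0`.) -/
theorem exists_rows (A : Matrix (Fin m) (Fin n) F) (I : Finset (Fin n)) (hI : ColIndep A I)
    (hne : I.Nonempty) :
    ∃ ρ : Fin n → Fin m, (∀ e ∈ I, A (ρ e) e ≠ 0) ∧ Set.InjOn ρ I := by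
  classical
  let t : I → Finset (Fin m) := fun e => univ.filter (fun i => A i e.1 ≠ 0)
  have hall : ∀ T : Finset I, T.card ≤ (T.biUnion t).card := by
    intro T
    set U := T.biUnion t with hU
    let v : T → (U → F) := fun e i => A i.1 e.1.1
    have hv : LinearIndependent F v := by
      rw [Fintype.linearIndependent_iff]
      intro g hg e
      have hI' : LinearIndependent F (fun e : I => fun i : Fin m => A i e.1) := hI
      have hsub : LinearIndependent F (fun e : T => fun i : Fin m => A i e.1.1) :=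
        hI'.comp (fun x : T => x.1) Subtype.val_injective
      rw [Fintype.linearIndependent_iff] at hsub
      refine hsub g ?_ e
      funext r
      by_cases hr : r ∈ U
      · have := congrFun hg ⟨r, hr⟩
        simpa [v, Finset.sum_apply] using this
      · simp only [Finset.sum_apply, Pi.smul_apply, smul_eq_mul, Pi.zero_apply]
        apply Finset.sum_eq_zero
        intro x _
        have hx : A r x.1.1 = 0 := by
          by_contra hne'
          apply hr
          exact Finset.mem_biUnion.2 ⟨x.1, x.2, by simp [t, hne']⟩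
        simp [hx]
    have hc := hv.fintype_card_le_finrank
    simpa using hc
  obtain ⟨f, hf, hft⟩ := (Finset.all_card_le_biUnion_card_iff_exists_injective t).1 hall
  obtain ⟨e0, he0⟩ := hne
  refine ⟨fun e => if h : e ∈ I then f ⟨e, h⟩ else f ⟨e0, he0⟩, ?_, ?_⟩
  · intro e he
    have := hft ⟨e, he⟩
    simp only [t, Finset.mem_filter, Finset.mem_univ, true_and] at this
    simpa [he] using this
  · intro e he e' he' h
    have he1 : e ∈ I := he
    have he2 : e' ∈ I := he'
    simp only [he1, he2, dif_pos] at h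
    have := hf h
    exact congrArg Subtype.val this

theorem perm_lastPos_le (A : Matrix (Fin m) (Fin n) F) (π : Equiv.Perm (Fin m)) (e : Fin n)
    (j : Fin m) (hj : A j e ≠ 0) : (π j : ℕ) + 1 ≤ lastPos A π e := by
  classical
  unfold lastPos
  exact Finset.le_sup (f := fun i => (π i : ℕ) + 1) (by simp [hj])

theorem perm_lastPos_exists (A : Matrix (Fin m) (Fin n) F) (π : Equiv.Perm (Fin m)) (e : Fin n)
    (i : Fin m) (hi : A i e ≠ 0) : ∃ j, A j e ≠ 0 ∧ lastPos A π e = (π j : ℕ) + 1 := by
  classical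
  unfold lastPos
  obtain ⟨j, hj, h⟩ := Finset.exists_mem_eq_sup (univ.filter (fun i => A i e ≠ 0))
    ⟨i, by simp [hi]⟩ (fun i => (π i : ℕ) + 1)
  refine ⟨j, by simpa using hj, ?_⟩
  rw [← h]

theorem perm_swap_mem (A : Matrix (Fin m) (Fin n) F) (e : Fin n) (i j l : Fin m)
    (hi : A i e ≠ 0) (hj : A j e ≠ 0) (hl : A l e ≠ 0) : A (Equiv.swap i j l) e ≠ 0 := by
  rw [Equiv.swap_apply_def]
  split_ifs <;> assumption

theorem perm_lastPos_swap (A : Matrix (Fin m) (Fin n) F) (π : Equiv.Perm (Fin m)) (e : Fin n)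
    (i j : Fin m) (hi : A i e ≠ 0) (hj : A j e ≠ 0) :
    lastPos A (π * Equiv.swap i j) e = lastPos A π e := by
  classical
  apply le_antisymm
  · obtain ⟨l, hl, h⟩ := perm_lastPos_exists A (π * Equiv.swap i j) e i hi
    rw [h]
    simp only [Equiv.Perm.mul_apply]
    exact perm_lastPos_le A π e _ (perm_swap_mem A e i j l hi hj hl)
  · obtain ⟨l, hl, h⟩ := perm_lastPos_exists A π e i hi
    rw [h]
    have h2 : π l = (π * Equiv.swap i j) (Equiv.swap i j l) := by simp
    rw [h2]
    exact perm_lastPos_le A _ e _ (perm_swap_mem A e i j l hi hj hl)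

open Classical in
/-- A fixed row of the support is the last one for a `1/|supp|` fraction of the permutations. -/
theorem card_perm_last (A : Matrix (Fin m) (Fin n) F) (k : ℕ)
    (hs : ∀ e, (univ.filter (fun i => A i e ≠ 0)).card ≤ k) (e : Fin n) (i : Fin m)
    (hi : A i e ≠ 0) :
    m.factorial ≤ k * (univ.filter (fun π : Equiv.Perm (Fin m) =>
      lastPos A π e = (π i : ℕ) + 1)).card := by
  set Sup : Finset (Fin m) := univ.filter (fun i => A i e ≠ 0) with hSup
  have hmem : ∀ j, j ∈ Sup ↔ A j e ≠ 0 := by intro j; simp [hSup]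
  have hcover : (univ : Finset (Equiv.Perm (Fin m))) ⊆
      Sup.biUnion (fun j => univ.filter (fun π : Equiv.Perm (Fin m) =>
        lastPos A π e = (π j : ℕ) + 1)) := by
    intro π _
    obtain ⟨j, hj, h⟩ := perm_lastPos_exists A π e i hi
    exact Finset.mem_biUnion.2 ⟨j, (hmem j).2 hj, by simp [h]⟩
  have hcard : ∀ j ∈ Sup, (univ.filter (fun π : Equiv.Perm (Fin m) =>
      lastPos A π e = (π j : ℕ) + 1)).card = (univ.filter (fun π : Equiv.Perm (Fin m) =>
      lastPos A π e = (π i : ℕ) + 1)).card := by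
    intro j hj
    have hj' := (hmem j).1 hj
    apply Finset.card_bij' (fun π _ => π * Equiv.swap i j) (fun π _ => π * Equiv.swap i j)
    · intro π hπ
      have h := (Finset.mem_filter.1 hπ).2
      refine Finset.mem_filter.2 ⟨Finset.mem_univ _, ?_⟩
      rw [perm_lastPos_swap A π e i j hi hj', h]
      simp
    · intro π hπ
      have h := (Finset.mem_filter.1 hπ).2
      refine Finset.mem_filter.2 ⟨Finset.mem_univ _, ?_⟩
      rw [perm_lastPos_swap A π e i j hi hj', h]
      simp
    · intro π _
      simp [mul_assoc]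
    · intro π _
      simp [mul_assoc]
  calc m.factorial = (univ : Finset (Equiv.Perm (Fin m))).card := by
        simp [Finset.card_univ, Fintype.card_perm]
    _ ≤ (Sup.biUnion (fun j => univ.filter (fun π : Equiv.Perm (Fin m) =>
        lastPos A π e = (π j : ℕ) + 1))).card := Finset.card_le_card hcover
    _ ≤ ∑ j ∈ Sup, (univ.filter (fun π : Equiv.Perm (Fin m) =>
        lastPos A π e = (π j : ℕ) + 1)).card := Finset.card_biUnion_le
    _ = ∑ _j ∈ Sup, (univ.filter (fun π : Equiv.Perm (Fin m) =>
        lastPos A π e = (π i : ℕ) + 1)).card := Finset.sum_congr rfl hcard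
    _ = Sup.card * (univ.filter (fun π : Equiv.Perm (Fin m) =>
        lastPos A π e = (π i : ℕ) + 1)).card := by simp
    _ ≤ k * (univ.filter (fun π : Equiv.Perm (Fin m) =>
        lastPos A π e = (π i : ℕ) + 1)).card := Nat.mul_le_mul_right _ (hs e)

open Classical in
/-- Averaging over `π`: for `I` independent there are sets `J π ⊆ I` with pairwise distinct nonzero
labels and `m! ∑_I v ≤ k ∑_π ∑_{J π} v`. -/
theorem exists_J (A : Matrix (Fin m) (Fin n) F) (k : ℕ)
    (hs : ∀ e, (univ.filter (fun i => A i e ≠ 0)).card ≤ k) (I : Finset (Fin n))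
    (hI : ColIndep A I) :
    ∃ J : Equiv.Perm (Fin m) → Finset (Fin n),
      (∀ π, ∀ e ∈ J π, lastPos A π e ≠ 0) ∧
      (∀ π, ∀ e ∈ J π, ∀ f ∈ J π, lastPos A π e = lastPos A π f → e = f) ∧
      ∀ v : Fin n → ℝ≥0∞, (m.factorial : ℝ≥0∞) * ∑ e ∈ I, v e ≤ k * ∑ π, ∑ e ∈ J π, v e := by
  rcases I.eq_empty_or_nonempty with rfl | hne
  · exact ⟨fun _ => ∅, by simp, by simp, by simp⟩
  obtain ⟨ρ, hρ, hinj⟩ := exists_rows A I hI hne
  refine ⟨fun π => I.filter (fun e => lastPos A π e = (π (ρ e) : ℕ) + 1), ?_, ?_, ?_⟩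
  · intro π e he
    rw [(Finset.mem_filter.1 he).2]
    omega
  · intro π e he f hf hef
    have he2 := (Finset.mem_filter.1 he).2
    have hf2 := (Finset.mem_filter.1 hf).2
    apply hinj (Finset.mem_filter.1 he).1 (Finset.mem_filter.1 hf).1
    have h3 : (π (ρ e) : ℕ) = π (ρ f) := by omega
    exact π.injective (Fin.ext h3)
  · intro v
    have hswap : ∑ π : Equiv.Perm (Fin m), ∑ e ∈ I.filter (fun e => lastPos A π e =
        (π (ρ e) : ℕ) + 1), v e = ∑ e ∈ I, ((univ.filter (fun π : Equiv.Perm (Fin m) =>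
          lastPos A π e = (π (ρ e) : ℕ) + 1)).card : ℝ≥0∞) * v e := by
      simp only [Finset.sum_filter]
      rw [Finset.sum_comm]
      apply Finset.sum_congr rfl
      intro e _
      rw [← Finset.sum_filter, Finset.sum_const, nsmul_eq_mul]
    rw [hswap, Finset.mul_sum, Finset.mul_sum]
    apply Finset.sum_le_sum
    intro e he
    have h4 := card_perm_last A k hs e (ρ e) (hρ e he)
    rw [← mul_assoc]
    gcongr
    exact_mod_cast h4

end Vale.Agent.Lib.P331
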