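import Vale.Agent.Lib.P331.Defs

open MeasureTheory Finset
open scoped NNReal ENNReal

noncomputable section
namespace Vale.Agent.Lib.P331
variable {m n : ℕ} {F : Type*} [Field F]

private theorem mem_foldl_aux {α : Type*} (step : Finset α → α → Finset α) (e : α)
    (P : Finset α → Prop)
    (hstepP : ∀ acc x, P acc → P (step acc x))
    (hmono : ∀ acc x, e ∈ acc → e ∈ step acc x)
    (hhit : ∀ acc, P acc → e ∈ step acc e) :
    ∀ (l : List α) (acc : Finset α), P acc → (e ∈ acc ∨ e ∈ l) → e ∈ l.foldl step acc := by
  intro l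
  induction l with
  | nil =>
    intro acc _ h
    simpa using h
  | cons x xs ih =>
    intro acc hacc hmem
    simp only [List.foldl_cons]
    apply ih _ (hstepP acc x hacc)
    rcases hmem with h | h
    · exact Or.inl (hmono acc x h)
    · rcases List.mem_cons.1 h with rfl | h
      · exact Or.inl (hhit acc hacc)
      · exact Or.inr h

/-- A unique winner is accepted, whatever the arrival order. -/
theorem mem_run_of_winner (A : Matrix (Fin m) (Fin n) F) (π : Equiv.Perm (Fin m))
    (b : Fin n → Bool) (ω : Fin n → ℝ≥0 × ℝ≥0) (e : Fin n) (order : List (Fin n))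
    (hmem : e ∈ order) (h : UniqueWinner A π b ω e) :
    e ∈ (theRule A).run (fun i => (ω i).1) (π, b) (fun i => (ω i).2) order := by
  obtain ⟨h0, hwin, huniq⟩ := h
  unfold OnlineRule.run
  refine mem_foldl_aux _ e (fun acc => ∀ f ∈ acc, lastPos A π f = lastPos A π e → f = e)
    ?_ ?_ ?_ order ∅ (by simp) (Or.inr hmem)
  · intro acc x hacc f hf hfe
    split_ifs at hf with hacc'
    · rcases Finset.mem_insert.1 hf with rfl | hf
      · by_contra hne
        obtain ⟨f', hf', hlt⟩ := huniq _ hfe hne
        have h1 : recS (fun i => (ω i).1) b f' < recV (ω f).2 b f :=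
          hacc'.2.2 f' (hf'.trans hfe.symm)
        exact lt_asymm h1 hlt
      · exact hacc f hf hfe
    · exact hacc f hf hfe
  · intro acc x he
    dsimp only
    split_ifs
    · exact Finset.mem_insert_of_mem he
    · exact he
  · intro acc hacc
    dsimp only
    by_cases he : e ∈ acc
    · split_ifs
      · exact Finset.mem_insert_self _ _
      · exact he
    · rw [if_pos]
      · exact Finset.mem_insert_self _ _
      · refine ⟨h0, ?_, fun f => hwin f⟩
        intro f hf hfe
        exact he (hacc f hf hfe ▸ hf)

/-- Pointwise: `H` is at most the gain under every arrival order. -/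
theorem H_le_gain (A : Matrix (Fin m) (Fin n) F) (π : Equiv.Perm (Fin m))
    (b : Fin n → Bool) (ω : Fin n → ℝ≥0 × ℝ≥0) (σ : Equiv.Perm (Fin n)) :
    H A π b ω ≤ ∑ e ∈ (theRule A).run (fun i => (ω i).1) (π, b) (fun i => (ω i).2)
        (List.ofFn σ), ((ω e).2 : ℝ≥0∞) := by
  classical
  unfold H
  rw [← Finset.sum_filter]
  refine Finset.sum_le_sum_of_subset ?_
  intro e he
  have hw : UniqueWinner A π b ω e := (Finset.mem_filter.1 he).2
  refine mem_run_of_winner A π b ω e _ ?_ hw
  rw [List.mem_ofFn]
  exact σ.surjective e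

end Vale.Agent.Lib.P331
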