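import Vale.Agent.Lib.P331.Indep
import Vale.Agent.Lib.P331.Run
import Vale.Agent.Lib.P331.Core
import Vale.Agent.Lib.P331.Perm
import Vale.Agent.Lib.P331.Meas

open MeasureTheory Finset
open scoped NNReal ENNReal

noncomputable section
namespace Vale.Agent.Lib.P331
variable {m n : ℕ} {F : Type*} [Field F]

open Classical in
/-- Pointwise inequality -/
theorem pointwise (A : Matrix (Fin m) (Fin n) F) (k : ℕ)
    (hs : ∀ e, (univ.filter (fun i => A i e ≠ 0)).card ≤ k)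
    (b : Fin n → Bool) (ω : Fin n → ℝ≥0 × ℝ≥0) :
    (m.factorial * 2 ^ n : ℝ≥0∞) * optE A (fun e => (ω e).2) ≤
      4 * k * ∑ π : Equiv.Perm (Fin m), ∑ W : Fin n → Bool, H A π (flipb W b) (flipω W ω) := by
  unfold optE
  simp only [ENNReal.mul_iSup]
  refine iSup_le fun I => iSup_le fun hI => ?_
  obtain ⟨J, hJ0, hJd, hJ⟩ := exists_J A k hs I hI
  calc (m.factorial * 2 ^ n : ℝ≥0∞) * ∑ e ∈ I, ((ω e).2 : ℝ≥0∞)
      = 2 ^ n * ((m.factorial : ℝ≥0∞) * ∑ e ∈ I, ((ω e).2 : ℝ≥0∞)) := by ring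
    _ ≤ 2 ^ n * ((k : ℝ≥0∞) * ∑ π, ∑ e ∈ J π, ((ω e).2 : ℝ≥0∞)) := by
        exact mul_le_mul_right (hJ _) _
    _ = (k : ℝ≥0∞) * ∑ π, (2 ^ n * ∑ e ∈ J π, ((ω e).2 : ℝ≥0∞)) := by
        rw [← Finset.mul_sum]; ring
    _ ≤ (k : ℝ≥0∞) * ∑ π, (4 * ∑ W : Fin n → Bool, H A π (flipb W b) (flipω W ω)) := by
        refine mul_le_mul_right (Finset.sum_le_sum fun π _ => ?_) _
        exact four_mul_sum_flip_H_ge A π b ω (J π) (hJ0 π) (hJd π)
    _ = 4 * k * ∑ π : Equiv.Perm (Fin m), ∑ W : Fin n → Bool, H A π (flipb W b) (flipω W ω) := by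
        rw [← Finset.mul_sum]; ring

/-- the map `W ↦ flipb W b` is a bijection of coin vectors -/
def flipbEquiv (b : Fin n → Bool) : (Fin n → Bool) ≃ (Fin n → Bool) where
  toFun W := flipb W b
  invFun W := flipb W b
  left_inv W := by
    funext e; simp only [flipb]; cases W e <;> cases b e <;> rfl
  right_inv W := by
    funext e; simp only [flipb]; cases W e <;> cases b e <;> rfl

open Classical in
theorem main_ineq (A : Matrix (Fin m) (Fin n) F) (k : ℕ) (hk : 0 < k)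
    (hs : ∀ e, (univ.filter (fun i => A i e ≠ 0)).card ≤ k)
    (D : Fin n → Measure ℝ≥0) (hD : ∀ e, IsProbabilityMeasure (D e))
    (adv : (Fin n → ℝ≥0 × ℝ≥0) → Seed m n → Equiv.Perm (Fin n)) :
    (1 / (4 * k) : ℝ≥0∞) * ∫⁻ ω, optE A (fun e => (ω e).2) ∂(jointLaw D) ≤
      ∫⁻ ω, (∑ r : Seed m n, ∑ e ∈ (theRule A).run (fun i => (ω i).1) r (fun i => (ω i).2)
          (List.ofFn (adv ω r)), ((ω e).2 : ℝ≥0∞)) / (Fintype.card (Seed m n) : ℝ≥0∞)
        ∂(jointLaw D) := by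
  set μ := jointLaw D with hμ
  set b : Fin n → Bool := fun _ => false with hb
  set C : ℝ≥0∞ := (m.factorial * 2 ^ n : ℝ≥0∞) with hC
  have hcard : (Fintype.card (Seed m n) : ℝ≥0∞) = C := by
    simp [Seed, Fintype.card_prod, Fintype.card_perm, hC]
  have hC0 : C ≠ 0 := by
    rw [hC]
    have h1 : (m.factorial : ℝ≥0∞) ≠ 0 := by exact_mod_cast m.factorial_ne_zero
    have h2 : (2 ^ n : ℝ≥0∞) ≠ 0 := by simp
    exact mul_ne_zero h1 h2
  have hCt : C ≠ ∞ := by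
    rw [hC]
    exact ENNReal.mul_ne_top (ENNReal.natCast_ne_top _) (ENNReal.pow_ne_top ENNReal.ofNat_ne_top)
  have hmeas : ∀ π b', Measurable (H A π b') := fun π b' => measurable_H A π b'
  have hflip : ∀ W, MeasurePreserving (flipω W) μ μ := fun W => flip_measurePreserving D hD W
  -- Step 1: integrate the pointwise inequality
  have step1 : C * ∫⁻ ω, optE A (fun e => (ω e).2) ∂μ ≤
      4 * k * ∑ π : Equiv.Perm (Fin m), ∑ b' : Fin n → Bool, ∫⁻ ω, H A π b' ω ∂μ := by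
    calc C * ∫⁻ ω, optE A (fun e => (ω e).2) ∂μ
        = ∫⁻ ω, C * optE A (fun e => (ω e).2) ∂μ := (lintegral_const_mul' C _ hCt).symm
      _ ≤ ∫⁻ ω, 4 * k * ∑ π : Equiv.Perm (Fin m), ∑ W : Fin n → Bool,
            H A π (flipb W b) (flipω W ω) ∂μ := lintegral_mono fun ω => pointwise A k hs b ω
      _ = 4 * k * ∑ π : Equiv.Perm (Fin m), ∑ W : Fin n → Bool,
            ∫⁻ ω, H A π (flipb W b) (flipω W ω) ∂μ := by
          rw [lintegral_const_mul' _ _ (by finiteness)]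
          congr 1
          have hm1 : ∀ π : Equiv.Perm (Fin m), ∀ W : Fin n → Bool,
              Measurable (fun ω => H A π (flipb W b) (flipω W ω)) :=
            fun π W => (hmeas π _).comp (hflip W).measurable
          rw [lintegral_finsetSum _ (fun π _ => Finset.measurable_sum _ fun W _ => hm1 π W)]
          refine Finset.sum_congr rfl fun π _ => ?_
          rw [lintegral_finsetSum _ (fun W _ => hm1 π W)]
      _ = 4 * k * ∑ π : Equiv.Perm (Fin m), ∑ W : Fin n → Bool,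
            ∫⁻ ω, H A π (flipb W b) ω ∂μ := by
          congr 1
          refine Finset.sum_congr rfl fun π _ => Finset.sum_congr rfl fun W _ => ?_
          exact (hflip W).lintegral_comp (hmeas π _)
      _ = 4 * k * ∑ π : Equiv.Perm (Fin m), ∑ b' : Fin n → Bool, ∫⁻ ω, H A π b' ω ∂μ := by
          congr 1
          refine Finset.sum_congr rfl fun π _ => ?_
          exact Fintype.sum_equiv (flipbEquiv b) _ _ (fun W => rfl)
  -- Step 2: sum of H is at most the gain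
  have step2 : ∑ π : Equiv.Perm (Fin m), ∑ b' : Fin n → Bool, ∫⁻ ω, H A π b' ω ∂μ ≤
      ∫⁻ ω, ∑ r : Seed m n, ∑ e ∈ (theRule A).run (fun i => (ω i).1) r (fun i => (ω i).2)
          (List.ofFn (adv ω r)), ((ω e).2 : ℝ≥0∞) ∂μ := by
    have : ∑ π : Equiv.Perm (Fin m), ∑ b' : Fin n → Bool, ∫⁻ ω, H A π b' ω ∂μ =
        ∫⁻ ω, ∑ r : Seed m n, H A r.1 r.2 ω ∂μ := by
      rw [lintegral_finsetSum _ (fun r _ => hmeas r.1 r.2)]
      rw [Fintype.sum_prod_type]
    rw [this]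
    refine lintegral_mono fun ω => Finset.sum_le_sum fun r _ => ?_
    exact H_le_gain A r.1 r.2 ω (adv ω r)
  -- Step 3: arithmetic
  have hdiv : ∫⁻ ω, (∑ r : Seed m n, ∑ e ∈ (theRule A).run (fun i => (ω i).1) r (fun i => (ω i).2)
          (List.ofFn (adv ω r)), ((ω e).2 : ℝ≥0∞)) / (Fintype.card (Seed m n) : ℝ≥0∞) ∂μ =
      (∫⁻ ω, ∑ r : Seed m n, ∑ e ∈ (theRule A).run (fun i => (ω i).1) r (fun i => (ω i).2)
          (List.ofFn (adv ω r)), ((ω e).2 : ℝ≥0∞) ∂μ) / C := by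
    rw [hcard]
    simp only [div_eq_mul_inv]
    rw [lintegral_mul_const' _ _ (ENNReal.inv_ne_top.mpr hC0)]
  rw [hdiv]
  set X := ∫⁻ ω, optE A (fun e => (ω e).2) ∂μ
  set Y := ∫⁻ ω, ∑ r : Seed m n, ∑ e ∈ (theRule A).run (fun i => (ω i).1) r (fun i => (ω i).2)
          (List.ofFn (adv ω r)), ((ω e).2 : ℝ≥0∞) ∂μ
  have hmain : C * X ≤ 4 * k * Y := step1.trans (by gcongr)
  have h4k0 : (4 * k : ℝ≥0∞) ≠ 0 := by
    have : (k : ℝ≥0∞) ≠ 0 := by exact_mod_cast hk.ne'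
    exact mul_ne_zero (by norm_num) this
  have h4kt : (4 * k : ℝ≥0∞) ≠ ∞ := by finiteness
  rw [ENNReal.le_div_iff_mul_le (Or.inl hC0) (Or.inl hCt)]
  calc 1 / (4 * k : ℝ≥0∞) * X * C = (4 * k : ℝ≥0∞)⁻¹ * (C * X) := by
        rw [one_div]; ring
    _ ≤ (4 * k : ℝ≥0∞)⁻¹ * (4 * k * Y) := by gcongr
    _ = Y := by
        rw [← mul_assoc, ENNReal.inv_mul_cancel h4k0 h4kt, one_mul]

end Vale.Agent.Lib.P331
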