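import Vale.Agent.Lib.P331.Defs

open MeasureTheory Finset
open scoped NNReal ENNReal

noncomputable section
namespace Vale.Agent.Lib.P331
variable {m n : ℕ} {F : Type*} [Field F]

theorem indep_le_lastPos (A : Matrix (Fin m) (Fin n) F) (π : Equiv.Perm (Fin m)) {i : Fin m}
    {e : Fin n} (h : A i e ≠ 0) : (π i : ℕ) + 1 ≤ lastPos A π e := by
  classical
  unfold lastPos
  exact Finset.le_sup (f := fun i => (π i : ℕ) + 1) (by simpa using h)

theorem indep_lastPos_spec (A : Matrix (Fin m) (Fin n) F) (π : Equiv.Perm (Fin m)) {e : Fin n}
    (hl : lastPos A π e ≠ 0) : ∃ i, A i e ≠ 0 ∧ (π i : ℕ) + 1 = lastPos A π e := by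
  classical
  by_contra hno
  push Not at hno
  apply hl
  unfold lastPos at hno ⊢
  have hne : (univ.filter (fun i => A i e ≠ 0)) = ∅ := by
    by_contra hc
    obtain ⟨i, hi, hie⟩ := Finset.exists_mem_eq_sup _ (Finset.nonempty_iff_ne_empty.mpr hc)
      (fun i => (π i : ℕ) + 1)
    exact hno i (by simpa using hi) hie.symm
  simp [hne]

/-- Linear algebra: columns with pairwise distinct nonzero `lastPos` are independent. -/
theorem colIndep_of_distinct_lastPos (A : Matrix (Fin m) (Fin n) F) (π : Equiv.Perm (Fin m))
    (I : Finset (Fin n)) (h0 : ∀ e ∈ I, lastPos A π e ≠ 0)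
    (hd : ∀ e ∈ I, ∀ f ∈ I, lastPos A π e = lastPos A π f → e = f) : ColIndep A I := by
  classical
  unfold ColIndep
  rw [Fintype.linearIndependent_iff]
  intro g hg
  by_contra hne
  push Not at hne
  let T : Finset I := univ.filter (fun e => g e ≠ 0)
  have hT : T.Nonempty := by
    obtain ⟨e, he⟩ := hne
    exact ⟨e, by simp [T, he]⟩
  obtain ⟨e, heT, hemax⟩ := Finset.exists_max_image T (fun e => lastPos A π e.1) hT
  have hge : g e ≠ 0 := by simpa [T] using heT
  obtain ⟨i, hi, hie⟩ := indep_lastPos_spec A π (h0 e.1 e.2)
  have hrow := congrFun hg i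
  simp only [Finset.sum_apply, Pi.smul_apply, smul_eq_mul, Pi.zero_apply] at hrow
  rw [Finset.sum_eq_single e] at hrow
  · exact (mul_ne_zero hge hi) hrow
  · intro f _ hfe
    by_cases hgf : g f = 0
    · simp [hgf]
    · have hfT : f ∈ T := by simp [T, hgf]
      have hle := hemax f hfT
      have hne' : lastPos A π f.1 ≠ lastPos A π e.1 := fun h =>
        hfe (Subtype.ext (hd f.1 f.2 e.1 e.2 h))
      have hlt : lastPos A π f.1 < lastPos A π e.1 := lt_of_le_of_ne hle hne'
      have hzero : A i f.1 = 0 := by
        by_contra hc
        have := indep_le_lastPos A π hc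
        omega
      simp [hzero]
  · intro h; exact absurd (Finset.mem_univ e) h

open Classical in
theorem indep_foldl_inv (A : Matrix (Fin m) (Fin n) F) (s : Fin n → ℝ≥0) (r : Seed m n)
    (v : Fin n → ℝ≥0) (order : List (Fin n)) (acc : Finset (Fin n))
    (h0 : ∀ e ∈ acc, lastPos A r.1 e ≠ 0)
    (hd : ∀ e ∈ acc, ∀ f ∈ acc, lastPos A r.1 e = lastPos A r.1 f → e = f) :
    (∀ e ∈ order.foldl (fun acc e => if (theRule A).accept s r acc e (v e) then insert e acc
        else acc) acc, lastPos A r.1 e ≠ 0) ∧
    (∀ e ∈ order.foldl (fun acc e => if (theRule A).accept s r acc e (v e) then insert e acc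
        else acc) acc, ∀ f ∈ order.foldl (fun acc e => if (theRule A).accept s r acc e (v e)
        then insert e acc else acc) acc, lastPos A r.1 e = lastPos A r.1 f → e = f) := by
  induction order generalizing acc with
  | nil => exact ⟨h0, hd⟩
  | cons x xs ih =>
    rw [List.foldl_cons]
    apply ih
    · by_cases hac : (theRule A).accept s r acc x (v x)
      · rw [if_pos hac]
        intro e he
        rcases Finset.mem_insert.mp he with rfl | he
        · exact hac.1
        · exact h0 e he
      · rw [if_neg hac]; exact h0
    · by_cases hac : (theRule A).accept s r acc x (v x)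
      · rw [if_pos hac]
        intro e he f hf hef
        rcases Finset.mem_insert.mp he with he1 | he1
        · rcases Finset.mem_insert.mp hf with hf1 | hf1
          · rw [he1, hf1]
          · rw [he1] at hef
            exact absurd hef.symm (hac.2.1 f hf1)
        · rcases Finset.mem_insert.mp hf with hf1 | hf1
          · rw [hf1] at hef
            exact absurd hef (hac.2.1 e he1)
          · exact hd e he1 f hf1 hef
      · rw [if_neg hac]; exact hd

/-- Every run of the rule produces an independent set. -/
theorem theRule_run_indep (A : Matrix (Fin m) (Fin n) F) (s : Fin n → ℝ≥0) (r : Seed m n)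
    (v : Fin n → ℝ≥0) (order : List (Fin n)) : ColIndep A ((theRule A).run s r v order) := by
  classical
  have h := indep_foldl_inv A s r v order ∅ (by simp) (by simp)
  apply colIndep_of_distinct_lastPos A r.1
  · intro e he
    apply h.1 e
    unfold OnlineRule.run at he
    convert he
  · intro e he f hf hef
    apply h.2 e _ f _ hef
    · unfold OnlineRule.run at he
      convert he
    · unfold OnlineRule.run at hf
      convert hf

end Vale.Agent.Lib.P331
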